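import Vale.Agent.Lib.P328.Tab

/-!
# P328: connectivity of the set of tables under 2 x 2 moves
-/

namespace Vale.Agent.Lib.P328

open Finset
open Vale.Agent.Lib.P335 (fib cE)

set_option linter.unusedSectionVars false

section Model

variable {ι κ : Type} [Fintype ι] [DecidableEq ι] [Fintype κ] [DecidableEq κ]

/-- cells that go up in the move -/
def mvUp (a b : ι) (j k : κ) (i : ι) (l : κ) : ℕ :=
  (if i = a ∧ l = k then 1 else 0) + (if i = b ∧ l = j then 1 else 0)

/-- cells that go down in the move -/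
def mvDn (a b : ι) (j k : κ) (i : ι) (l : κ) : ℕ :=
  (if i = a ∧ l = j then 1 else 0) + (if i = b ∧ l = k then 1 else 0)

/-- the move: `(a,j)` and `(b,k)` go down by one, `(a,k)` and `(b,j)` go up by one -/
def mv (a b : ι) (j k : κ) (x : Tab ι κ) : Tab ι κ :=
  fun i l => x i l + mvUp a b j k i l - mvDn a b j k i l

theorem sum_ind_col (p : Prop) [Decidable p] (k : κ) :
    ∑ l, (if p ∧ l = k then 1 else 0 : ℕ) = if p then 1 else 0 := by
  by_cases hp : p <;> simp [hp]

theorem sum_ind_row (p : Prop) [Decidable p] (a : ι) :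
    ∑ i, (if i = a ∧ p then 1 else 0 : ℕ) = if p then 1 else 0 := by
  by_cases hp : p <;> simp [hp]

theorem mvDn_le {a b : ι} {j k : κ} (hab : a ≠ b) {x : Tab ι κ} (h1 : 1 ≤ x a j) (h2 : 1 ≤ x b k)
    (i : ι) (l : κ) : mvDn a b j k i l ≤ x i l := by
  unfold mvDn
  by_cases c1 : i = a ∧ l = j
  · obtain ⟨rfl, rfl⟩ := c1
    have : ¬ (i = b ∧ l = k) := fun h => hab h.1
    simp [this, h1]
  · by_cases c2 : i = b ∧ l = k
    · obtain ⟨rfl, rfl⟩ := c2
      simp [c1, h2]
    · simp [c1, c2]

theorem mv_mem {r : ι → ℕ} {c : κ → ℕ} {a b : ι} {j k : κ} (hab : a ≠ b) {x : Tab ι κ}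
    (hx : x ∈ Om r c) (h1 : 1 ≤ x a j) (h2 : 1 ≤ x b k) : mv a b j k x ∈ Om r c := by
  rw [mem_Om] at hx ⊢
  have hp : ∀ i l, mv a b j k x i l + mvDn a b j k i l = x i l + mvUp a b j k i l := by
    intro i l
    have := mvDn_le (j := j) (k := k) hab h1 h2 i l
    unfold mv
    omega
  constructor
  · intro i
    have h := Finset.sum_congr (s₁ := (univ : Finset κ)) rfl (fun l _ => hp i l)
    rw [sum_add_distrib, sum_add_distrib, hx.1 i] at h
    have e1 : ∑ l, mvDn a b j k i l = (if i = a then 1 else 0) + (if i = b then 1 else 0) := by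
      unfold mvDn
      rw [sum_add_distrib, sum_ind_col, sum_ind_col]
    have e2 : ∑ l, mvUp a b j k i l = (if i = a then 1 else 0) + (if i = b then 1 else 0) := by
      unfold mvUp
      rw [sum_add_distrib, sum_ind_col, sum_ind_col]
    omega
  · intro l
    have h := Finset.sum_congr (s₁ := (univ : Finset ι)) rfl (fun i _ => hp i l)
    rw [sum_add_distrib, sum_add_distrib, hx.2 l] at h
    have e1 : ∑ i, mvDn a b j k i l = (if l = j then 1 else 0) + (if l = k then 1 else 0) := by
      unfold mvDn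
      rw [sum_add_distrib, sum_ind_row, sum_ind_row]
    have e2 : ∑ i, mvUp a b j k i l = (if l = k then 1 else 0) + (if l = j then 1 else 0) := by
      unfold mvUp
      rw [sum_add_distrib, sum_ind_row, sum_ind_row]
    omega

theorem mv_rel (a b : ι) (j k : κ) (x : Tab ι κ) : rel {a, b} x (mv a b j k x) := by
  intro i hi
  simp only [mem_insert, mem_singleton, not_or] at hi
  funext l
  simp [mv, mvUp, mvDn, hi.1, hi.2]

/-- the excess of `x` over `y` -/
def exc (x y : Tab ι κ) : ℕ := ∑ i, ∑ l, (x i l - y i l)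

theorem eq_of_exc_zero {r : ι → ℕ} {c : κ → ℕ} {x y : Tab ι κ} (hx : x ∈ Om r c) (hy : y ∈ Om r c)
    (h : exc x y = 0) : x = y := by
  rw [mem_Om] at hx hy
  have hle : ∀ i l, x i l ≤ y i l := by
    intro i l
    unfold exc at h
    rw [sum_eq_zero_iff] at h
    have h' := h i (mem_univ i)
    rw [sum_eq_zero_iff] at h'
    have := h' l (mem_univ l)
    omega
  funext i l
  by_contra hne
  have hlt : x i l < y i l := lt_of_le_of_ne (hle i l) hne
  have : ∑ l, x i l < ∑ l, y i l :=
    sum_lt_sum (fun l _ => hle i l) ⟨l, mem_univ l, hlt⟩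
  rw [hx.1 i, hy.1 i] at this
  exact lt_irrefl _ this

theorem exists_move {r : ι → ℕ} {c : κ → ℕ} {x y : Tab ι κ} (hx : x ∈ Om r c) (hy : y ∈ Om r c)
    (h : exc x y ≠ 0) :
    ∃ a b j k, a ≠ b ∧ 1 ≤ x a j ∧ 1 ≤ x b k ∧ exc (mv a b j k x) y < exc x y := by
  have hx' := mem_Om.mp hx
  have hy' := mem_Om.mp hy
  -- a cell with x > y
  obtain ⟨a, j, haj⟩ : ∃ a j, y a j < x a j := by
    by_contra hcon
    push Not at hcon
    apply h
    unfold exc
    refine sum_eq_zero fun i _ => sum_eq_zero fun l _ => ?_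
    have := hcon i l
    omega
  obtain ⟨k, hak⟩ : ∃ k, x a k < y a k := by
    by_contra hcon
    push Not at hcon
    have : ∑ l, y a l < ∑ l, x a l := sum_lt_sum (fun l _ => hcon l) ⟨j, mem_univ j, haj⟩
    rw [hx'.1 a, hy'.1 a] at this
    exact lt_irrefl _ this
  obtain ⟨b, hbk⟩ : ∃ b, y b k < x b k := by
    by_contra hcon
    push Not at hcon
    have : ∑ i, x i k < ∑ i, y i k := sum_lt_sum (fun i _ => hcon i) ⟨a, mem_univ a, hak⟩
    rw [hx'.2 k, hy'.2 k] at this
    exact lt_irrefl _ this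
  have hab : a ≠ b := by
    rintro rfl
    omega
  have hjk : j ≠ k := by
    rintro rfl
    omega
  refine ⟨a, b, j, k, hab, by omega, by omega, ?_⟩
  have hp : ∀ i l, (mv a b j k x i l - y i l) + mvDn a b j k i l ≤
      (x i l - y i l) + (if i = b ∧ l = j then 1 else 0) := by
    intro i l
    unfold mv mvUp mvDn
    by_cases c1 : i = a ∧ l = j
    · have n2 : ¬ (i = a ∧ l = k) := fun h => hjk (c1.2.symm.trans h.2)
      have n3 : ¬ (i = b ∧ l = j) := fun h => hab (c1.1.symm.trans h.1)
      have n4 : ¬ (i = b ∧ l = k) := fun h => hab (c1.1.symm.trans h.1)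
      rw [if_pos c1, if_neg n2, if_neg n3, if_neg n4, c1.1, c1.2]
      omega
    · by_cases c2 : i = b ∧ l = k
      · have n2 : ¬ (i = a ∧ l = k) := fun h => hab (h.1.symm.trans c2.1)
        have n3 : ¬ (i = b ∧ l = j) := fun h => hjk (h.2.symm.trans c2.2)
        rw [if_neg c1, if_pos c2, if_neg n2, if_neg n3, c2.1, c2.2]
        omega
      · by_cases c3 : i = a ∧ l = k
        · have n3 : ¬ (i = b ∧ l = j) := fun h => hab (c3.1.symm.trans h.1)
          rw [if_neg c1, if_neg c2, if_pos c3, if_neg n3, c3.1, c3.2]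
          omega
        · by_cases c4 : i = b ∧ l = j
          · rw [if_neg c1, if_neg c2, if_neg c3, if_pos c4]
            omega
          · rw [if_neg c1, if_neg c2, if_neg c3, if_neg c4]
            omega
  have hs : exc (mv a b j k x) y + ∑ i, ∑ l, mvDn a b j k i l ≤
      exc x y + ∑ i, ∑ l, (if i = b ∧ l = j then 1 else 0 : ℕ) := by
    unfold exc
    rw [← sum_add_distrib, ← sum_add_distrib]
    refine sum_le_sum fun i _ => ?_
    rw [← sum_add_distrib, ← sum_add_distrib]
    exact sum_le_sum fun l _ => hp i l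
  have e1 : ∑ i, ∑ l, mvDn a b j k i l = 2 := by
    unfold mvDn
    simp only [sum_add_distrib, sum_ind_col]
    simp
  have e2 : ∑ i, ∑ l, (if i = b ∧ l = j then 1 else 0 : ℕ) = 1 := by
    simp only [sum_ind_col]
    simp
  omega

/-- a function that is invariant under all admissible 2 x 2 moves is constant on the set of tables
with given margins -/
theorem conn_moves (r : ι → ℕ) (c : κ → ℕ) (v : Tab ι κ → ℝ)
    (h : ∀ x ∈ Om r c, ∀ a b j k, a ≠ b → 1 ≤ x a j → 1 ≤ x b k → v (mv a b j k x) = v x) :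
    ∀ x ∈ Om r c, ∀ y ∈ Om r c, v y = v x := by
  have key : ∀ n : ℕ, ∀ x ∈ Om r c, ∀ y ∈ Om r c, exc x y ≤ n → v y = v x := by
    intro n
    induction n with
    | zero =>
      intro x hx y hy hn
      rw [eq_of_exc_zero hx hy (Nat.le_zero.mp hn)]
    | succ n ih =>
      intro x hx y hy hn
      by_cases h0 : exc x y = 0
      · rw [eq_of_exc_zero hx hy h0]
      · obtain ⟨a, b, j, k, hab, h1, h2, hlt⟩ := exists_move hx hy h0
        have hm := mv_mem (j := j) (k := k) hab hx h1 h2
        rw [ih _ hm y hy (by omega), h x hx a b j k hab h1 h2]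
  intro x hx y hy
  exact key _ x hx y hy le_rfl

/-- a function that is invariant under the resampling of any two rows is constant -/
theorem conn (r : ι → ℕ) (c : κ → ℕ) (v : Tab ι κ → ℝ)
    (h : ∀ a b, ∀ x ∈ Om r c, ∀ y ∈ Om r c, rel {a, b} x y → v y = v x) :
    ∀ x ∈ Om r c, ∀ y ∈ Om r c, v y = v x := by
  apply conn_moves r c v
  intro x hx a b j k hab h1 h2
  exact h a b x hx _ (mv_mem hab hx h1 h2) (mv_rel a b j k x)

end Model

end Vale.Agent.Lib.P328
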