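import Vale.Agent.Lib.P335.BasicAvg
import Vale.Agent.Lib.P335.Knabe
import Vale.Agent.Lib.P335.Spec

/-!
# P328: contingency tables, resampling of sets of rows
-/

namespace Vale.Agent.Lib.P328

open Finset
open Vale.Agent.Lib.P335 (fib cE)

set_option linter.unusedSectionVars false

section Model

variable {ι κ : Type} [Fintype ι] [DecidableEq ι] [Fintype κ] [DecidableEq κ]

/-- tables with nonnegative integer entries -/
abbrev Tab (ι κ : Type) := ι → κ → ℕ

/-- all tables with row sums `r` and column sums `c` (the bound `x i j ≤ c j` built into the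
definition is implied by the column sums, see `mem_Om`) -/
def Om (r : ι → ℕ) (c : κ → ℕ) : Finset (Tab ι κ) :=
  (Fintype.piFinset fun _ : ι => Fintype.piFinset fun j : κ => Finset.range (c j + 1)).filter
    fun x => (∀ i, ∑ j, x i j = r i) ∧ ∀ j, ∑ i, x i j = c j

theorem mem_Om {r : ι → ℕ} {c : κ → ℕ} {x : Tab ι κ} :
    x ∈ Om r c ↔ (∀ i, ∑ j, x i j = r i) ∧ ∀ j, ∑ i, x i j = c j := by
  unfold Om
  rw [mem_filter]
  constructor
  · exact fun h => h.2
  · intro h
    refine ⟨?_, h⟩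
    rw [Fintype.mem_piFinset]
    intro i
    rw [Fintype.mem_piFinset]
    intro j
    rw [mem_range, Nat.lt_succ_iff, ← h.2 j]
    exact single_le_sum (f := fun i => x i j) (fun _ _ => Nat.zero_le _) (mem_univ i)

/-- `y` agrees with `x` on all rows outside `R` -/
def rel (R : Finset ι) (x y : Tab ι κ) : Prop := ∀ i, i ∉ R → y i = x i

instance relDecidable (R : Finset ι) : DecidableRel (rel (κ := κ) R) :=
  fun x y => inferInstanceAs (Decidable (∀ i, i ∉ R → y i = x i))

/-- resample the rows of `R` uniformly, all other rows kept: average over the class -/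
noncomputable def avg (Ω : Finset (Tab ι κ)) (R : Finset ι) (f : Tab ι κ → ℝ) (x : Tab ι κ) : ℝ :=
  cE Ω (rel R) f x

/-- sum of the entries of column `j` in the rows of `R` -/
def pSum (R : Finset ι) (x : Tab ι κ) (j : κ) : ℕ := ∑ i ∈ R, x i j

theorem rel_equiv (R : Finset ι) : Equivalence (rel (κ := κ) R) where
  refl := fun _ _ _ => rfl
  symm := fun h i hi => (h i hi).symm
  trans := fun h1 h2 i hi => (h2 i hi).trans (h1 i hi)

theorem colSum_eq_pSum_add (R : Finset ι) (x : Tab ι κ) (j : κ) :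
    ∑ i, x i j = pSum R x j + ∑ i ∈ Rᶜ, x i j := by
  unfold pSum
  rw [Finset.sum_add_sum_compl]

theorem pSum_eq_of_rel {r : ι → ℕ} {c : κ → ℕ} {x y : Tab ι κ} (hx : x ∈ Om r c) (hy : y ∈ Om r c)
    {R : Finset ι} (h : rel R x y) (j : κ) : pSum R y j = pSum R x j := by
  have h1 := (mem_Om.mp hx).2 j
  have h2 := (mem_Om.mp hy).2 j
  rw [colSum_eq_pSum_add R] at h1 h2
  have h3 : ∑ i ∈ Rᶜ, y i j = ∑ i ∈ Rᶜ, x i j := by
    apply Finset.sum_congr rfl
    intro i hi
    rw [h i (Finset.mem_compl.mp hi)]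
  omega

/-- rows of `R` taken from `y`, all other rows from `z` -/
def mrg (R : Finset ι) (y z : Tab ι κ) : Tab ι κ := fun i => if i ∈ R then y i else z i

theorem cm_colSum_mrg (R : Finset ι) (y z : Tab ι κ) (j : κ) (h : pSum R y j = pSum R z j) :
    ∑ i, mrg R y z i j = ∑ i, z i j := by
  rw [← Finset.sum_add_sum_compl R, ← Finset.sum_add_sum_compl R (fun i => z i j)]
  have h1 : ∑ i ∈ R, mrg R y z i j = pSum R y j := by
    unfold pSum
    apply Finset.sum_congr rfl
    intro i hi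
    simp [mrg, hi]
  have h2 : ∑ i ∈ Rᶜ, mrg R y z i j = ∑ i ∈ Rᶜ, z i j := by
    apply Finset.sum_congr rfl
    intro i hi
    have : i ∉ R := Finset.mem_compl.mp hi
    simp [mrg, this]
  rw [h1, h2, h]
  rfl

theorem cm_mrg_mem {r : ι → ℕ} {c : κ → ℕ} {R R' : Finset ι} (hd : Disjoint R R')
    {x y z : Tab ι κ} (hx : x ∈ Om r c) (hy : y ∈ Om r c) (hxy : rel R x y)
    (hz : z ∈ fib (Om r c) (rel R') x) : mrg R y z ∈ fib (Om r c) (rel R') y := by
  obtain ⟨hzO, hxz⟩ := Finset.mem_filter.mp hz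
  have hzR : ∀ i ∈ R, z i = x i := fun i hi => hxz i (Finset.disjoint_left.mp hd hi)
  unfold fib
  rw [Finset.mem_filter]
  constructor
  · rw [mem_Om]
    refine ⟨?_, ?_⟩
    · intro i
      by_cases hi : i ∈ R
      · have : ∑ j, mrg R y z i j = ∑ j, y i j := by simp [mrg, hi]
        rw [this]; exact (mem_Om.mp hy).1 i
      · have : ∑ j, mrg R y z i j = ∑ j, z i j := by simp [mrg, hi]
        rw [this]; exact (mem_Om.mp hzO).1 i
    · intro j
      rw [cm_colSum_mrg]
      · exact (mem_Om.mp hzO).2 j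
      · rw [pSum_eq_of_rel hx hy hxy j]
        unfold pSum
        apply Finset.sum_congr rfl
        intro i hi
        rw [hzR i hi]
  · intro i hi
    by_cases hiR : i ∈ R
    · simp [mrg, hiR]
    · simp only [mrg, hiR, if_false]
      rw [hxz i hi, hxy i hiR]

theorem cm_sum {r : ι → ℕ} {c : κ → ℕ} {R R' : Finset ι} (hd : Disjoint R R')
    {x y : Tab ι κ} (hx : x ∈ Om r c) (hy : y ∈ fib (Om r c) (rel R) x) (g : Tab ι κ → ℝ) :
    ∑ u ∈ fib (Om r c) (rel R') y, g u = ∑ z ∈ fib (Om r c) (rel R') x, g (mrg R y z) := by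
  obtain ⟨hyO, hxy⟩ := Finset.mem_filter.mp hy
  have hyx : rel R y x := (rel_equiv R).symm hxy
  symm
  apply Finset.sum_bij' (fun z _ => mrg R y z) (fun u _ => mrg R x u)
  · intro z hz
    exact cm_mrg_mem hd hx hyO hxy hz
  · intro u hu
    exact cm_mrg_mem hd hyO hx hyx hu
  · intro z hz
    obtain ⟨hzO, hxz⟩ := Finset.mem_filter.mp hz
    funext i
    by_cases hi : i ∈ R
    · simp only [mrg, hi, if_true]
      exact (hxz i (Finset.disjoint_left.mp hd hi)).symm
    · simp [mrg, hi]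
  · intro u hu
    obtain ⟨huO, hyu⟩ := Finset.mem_filter.mp hu
    funext i
    by_cases hi : i ∈ R
    · simp only [mrg, hi, if_true]
      exact (hyu i (Finset.disjoint_left.mp hd hi)).symm
    · simp [mrg, hi]
  · intro z hz
    rfl

theorem cm_card {r : ι → ℕ} {c : κ → ℕ} {R R' : Finset ι} (hd : Disjoint R R')
    {x y : Tab ι κ} (hx : x ∈ Om r c) (hy : y ∈ fib (Om r c) (rel R) x) :
    ((fib (Om r c) (rel R') y).card : ℝ) = ((fib (Om r c) (rel R') x).card : ℝ) := by
  have h := cm_sum (R' := R') hd hx hy (fun _ => (1 : ℝ))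
  simpa using h

/-- resamplings of disjoint sets of rows commute -/
theorem avg_comm (r : ι → ℕ) (c : κ → ℕ) (R R' : Finset ι) (hd : Disjoint R R') (f : Tab ι κ → ℝ)
    (x : Tab ι κ) (hx : x ∈ Om r c) :
    avg (Om r c) R (avg (Om r c) R' f) x = avg (Om r c) R' (avg (Om r c) R f) x := by
  unfold avg cE
  have hL : ∑ y ∈ fib (Om r c) (rel R) x,
      (∑ u ∈ fib (Om r c) (rel R') y, f u) / ((fib (Om r c) (rel R') y).card : ℝ) =
      ∑ y ∈ fib (Om r c) (rel R) x,
      (∑ z ∈ fib (Om r c) (rel R') x, f (mrg R y z)) / ((fib (Om r c) (rel R') x).card : ℝ) := by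
    apply Finset.sum_congr rfl
    intro y hy
    rw [cm_sum hd hx hy f, cm_card hd hx hy]
  have hR : ∑ z ∈ fib (Om r c) (rel R') x,
      (∑ u ∈ fib (Om r c) (rel R) z, f u) / ((fib (Om r c) (rel R) z).card : ℝ) =
      ∑ z ∈ fib (Om r c) (rel R') x,
      (∑ y ∈ fib (Om r c) (rel R) x, f (mrg R y z)) / ((fib (Om r c) (rel R) x).card : ℝ) := by
    apply Finset.sum_congr rfl
    intro z hz
    rw [cm_sum hd.symm hx hz f, cm_card hd.symm hx hz]
    congr 1
    apply Finset.sum_congr rfl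
    intro y hy
    congr 1
    obtain ⟨hzO, hxz⟩ := Finset.mem_filter.mp hz
    obtain ⟨hyO, hxy⟩ := Finset.mem_filter.mp hy
    funext i
    by_cases hi : i ∈ R
    · have hi' : i ∉ R' := Finset.disjoint_left.mp hd hi
      simp [mrg, hi, hi']
    · by_cases hi' : i ∈ R'
      · simp [mrg, hi, hi']
      · simp only [mrg, hi, hi', if_false]
        rw [hxy i hi, hxz i hi']
  rw [hL, hR, ← Finset.sum_div, ← Finset.sum_div, Finset.sum_comm, div_div, div_div, mul_comm]

end Model

end Vale.Agent.Lib.P328
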