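import Vale.Agent.Lib.P328.Poinc

/-!
# P328: a class of the relation `rel T` is itself a set of tables (rows indexed by `T`)
-/

namespace Vale.Agent.Lib.P328

open Finset
open Vale.Agent.Lib.P335 (fib cE cE_symm cE_of_inv)

set_option linter.unusedSectionVars false

section Transfer
variable {ι ι' κ : Type} [Fintype ι] [DecidableEq ι] [Fintype ι'] [DecidableEq ι']
  [Fintype κ] [DecidableEq κ]

/-- restriction of a table to the rows `emb k` -/
def res (emb : ι' → ι) (x : Tab ι κ) : Tab ι' κ := fun k => x (emb k)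

/-- the rows `emb k` are taken from `y`, the other rows from `x` -/
noncomputable def ext (emb : ι' → ι) (x : Tab ι κ) (y : Tab ι' κ) : Tab ι κ := Function.extend emb y x

/-- column sums of the restricted table -/
def resCol (emb : ι' → ι) (x : Tab ι κ) : κ → ℕ := fun j => ∑ k, x (emb k) j

theorem ext_emb {emb : ι' → ι} (hinj : Function.Injective emb) (x : Tab ι κ) (y : Tab ι' κ) (k : ι') :
    ext emb x y (emb k) = y k := hinj.extend_apply y x k

theorem ext_off {emb : ι' → ι} (x : Tab ι κ) (y : Tab ι' κ) {i : ι} (hi : i ∉ univ.image emb) :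
    ext emb x y i = x i := by
  apply Function.extend_apply'
  rintro ⟨k, rfl⟩
  exact hi (mem_image_of_mem emb (mem_univ k))

theorem pSum_image {emb : ι' → ι} (hinj : Function.Injective emb) (z : Tab ι κ) (j : κ) :
    pSum (univ.image emb) z j = ∑ k, z (emb k) j := by
  unfold pSum
  rw [sum_image (fun a _ b _ h => hinj h)]

theorem image_subset_univ (emb : ι' → ι) (R' : Finset ι') : R'.image emb ⊆ univ.image emb :=
  image_subset_image (subset_univ _)

theorem res_mem {emb : ι' → ι} (hinj : Function.Injective emb) {r : ι → ℕ} {c : κ → ℕ}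
    {x z : Tab ι κ} (hx : x ∈ Om r c) (R' : Finset ι')
    (hz : z ∈ fib (Om r c) (rel (R'.image emb)) x) :
    res emb z ∈ fib (Om (fun k => r (emb k)) (resCol emb x)) (rel R') (res emb x) := by
  obtain ⟨hzO, hxz⟩ := mem_filter.mp hz
  unfold fib
  rw [mem_filter, mem_Om]
  refine ⟨⟨fun k => (mem_Om.mp hzO).1 (emb k), fun j => ?_⟩, ?_⟩
  · have h := pSum_eq_of_rel hx hzO (rel_mono (image_subset_univ emb R') x z hxz) j
    rw [pSum_image hinj, pSum_image hinj] at h
    exact h
  · intro k hk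
    apply hxz (emb k)
    intro hmem
    obtain ⟨k', hk', he⟩ := mem_image.mp hmem
    exact hk (hinj he ▸ hk')

theorem ext_mem {emb : ι' → ι} (hinj : Function.Injective emb) {r : ι → ℕ} {c : κ → ℕ}
    {x : Tab ι κ} (hx : x ∈ Om r c) (R' : Finset ι') {y : Tab ι' κ}
    (hy : y ∈ fib (Om (fun k => r (emb k)) (resCol emb x)) (rel R') (res emb x)) :
    ext emb x y ∈ fib (Om r c) (rel (R'.image emb)) x := by
  obtain ⟨hyO, hxy⟩ := mem_filter.mp hy
  unfold fib
  rw [mem_filter, mem_Om]
  refine ⟨⟨fun i => ?_, fun j => ?_⟩, ?_⟩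
  · by_cases hi : i ∈ univ.image emb
    · obtain ⟨k, _, rfl⟩ := mem_image.mp hi
      rw [ext_emb hinj]
      exact (mem_Om.mp hyO).1 k
    · rw [ext_off x y hi]
      exact (mem_Om.mp hx).1 i
  · rw [colSum_eq_pSum_add (univ.image emb), pSum_image hinj, ← (mem_Om.mp hx).2 j,
      colSum_eq_pSum_add (univ.image emb) x, pSum_image hinj]
    congr 1
    · have := (mem_Om.mp hyO).2 j
      unfold resCol at this
      rw [← this]
      exact sum_congr rfl fun k _ => by rw [ext_emb hinj]
    · exact sum_congr rfl fun i hi => by rw [ext_off x y (mem_compl.mp hi)]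
  · intro i hi
    by_cases hi' : i ∈ univ.image emb
    · obtain ⟨k, _, rfl⟩ := mem_image.mp hi'
      rw [ext_emb hinj]
      apply hxy k
      intro hk
      exact hi (mem_image_of_mem emb hk)
    · exact ext_off x y hi'

theorem ext_res {emb : ι' → ι} (hinj : Function.Injective emb) {x z : Tab ι κ}
    (hxz : rel (univ.image emb) x z) : ext emb x (res emb z) = z := by
  funext i
  by_cases hi : i ∈ univ.image emb
  · obtain ⟨k, _, rfl⟩ := mem_image.mp hi
    rw [ext_emb hinj]
    rfl
  · rw [ext_off _ _ hi, hxz i hi]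

theorem res_ext {emb : ι' → ι} (hinj : Function.Injective emb) (x : Tab ι κ) (y : Tab ι' κ) :
    res emb (ext emb x y) = y := by
  funext k
  unfold res
  rw [ext_emb hinj]

/-- sums over a class are sums over the corresponding class of smaller tables -/
theorem sum_fib_transfer {emb : ι' → ι} (hinj : Function.Injective emb) {r : ι → ℕ} {c : κ → ℕ}
    {x : Tab ι κ} (hx : x ∈ Om r c) (R' : Finset ι') (G : Tab ι' κ → ℝ) :
    ∑ z ∈ fib (Om r c) (rel (R'.image emb)) x, G (res emb z) =
      ∑ y ∈ fib (Om (fun k => r (emb k)) (resCol emb x)) (rel R') (res emb x), G y := by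
  apply sum_bij' (fun z _ => res emb z) (fun y _ => ext emb x y)
  · intro z hz
    exact res_mem hinj hx R' hz
  · intro y hy
    exact ext_mem hinj hx R' hy
  · intro z hz
    exact ext_res hinj (rel_mono (image_subset_univ emb R') x z (mem_filter.mp hz).2)
  · intro y _
    exact res_ext hinj x y
  · intro z _
    rfl

theorem avg_transfer {emb : ι' → ι} (hinj : Function.Injective emb) {r : ι → ℕ} {c : κ → ℕ}
    {x : Tab ι κ} (hx : x ∈ Om r c) (R' : Finset ι') (f : Tab ι κ → ℝ) :
    avg (Om r c) (R'.image emb) f x =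
      avg (Om (fun k => r (emb k)) (resCol emb x)) R' (fun y => f (ext emb x y)) (res emb x) := by
  unfold avg cE
  have h1 := sum_fib_transfer hinj hx R' (fun y => f (ext emb x y))
  have h2 := sum_fib_transfer hinj hx R' (fun _ => (1 : ℝ))
  have h3 : ∑ z ∈ fib (Om r c) (rel (R'.image emb)) x, f z =
      ∑ z ∈ fib (Om r c) (rel (R'.image emb)) x, f (ext emb x (res emb z)) :=
    sum_congr rfl fun z hz => by
      rw [ext_res hinj (rel_mono (image_subset_univ emb R') x z (mem_filter.mp hz).2)]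
  rw [h3, h1]
  congr 1
  simpa using h2

theorem dd_transfer {emb : ι' → ι} (hinj : Function.Injective emb) {r : ι → ℕ} {c : κ → ℕ}
    {x : Tab ι κ} (hx : x ∈ Om r c) (R' : Finset ι') (f : Tab ι κ → ℝ) :
    dd (Om r c) (R'.image emb) f x =
      dd (Om (fun k => r (emb k)) (resCol emb x)) R' (fun y => f (ext emb x y)) (res emb x) := by
  unfold dd
  rw [avg_transfer hinj hx R' f]
  show f x - _ = f (ext emb x (res emb x)) - _
  rw [ext_res hinj ((rel_equiv _).refl x)]

theorem ext_congr {emb : ι' → ι} (hinj : Function.Injective emb) {x x0 : Tab ι κ}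
    (h : rel (univ.image emb) x0 x) (y : Tab ι' κ) : ext emb x y = ext emb x0 y := by
  funext i
  by_cases hi : i ∈ univ.image emb
  · obtain ⟨k, _, rfl⟩ := mem_image.mp hi
    rw [ext_emb hinj, ext_emb hinj]
  · rw [ext_off _ _ hi, ext_off _ _ hi, h i hi]

theorem resCol_congr {emb : ι' → ι} (hinj : Function.Injective emb) {r : ι → ℕ} {c : κ → ℕ}
    {x x0 : Tab ι κ} (hx0 : x0 ∈ Om r c) (hx : x ∈ Om r c)
    (h : rel (univ.image emb) x0 x) : resCol emb x = resCol emb x0 := by
  funext j
  have := pSum_eq_of_rel hx0 hx h j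
  rw [pSum_image hinj, pSum_image hinj] at this
  exact this

/-- a sum over all tables is nonnegative if it is nonnegative on every class -/
theorem sum_nonneg_of_class (Ω : Finset (Tab ι κ)) (T : Finset ι) (G : Tab ι κ → ℝ)
    (h : ∀ x0 ∈ Ω, 0 ≤ ∑ x ∈ fib Ω (rel T) x0, G x) : 0 ≤ ∑ x ∈ Ω, G x := by
  have h1 := cE_symm Ω (rel T) (rel_equiv T) (fun _ => (1 : ℝ)) G
  have h2 : ∀ x ∈ Ω, cE Ω (rel T) (fun _ => (1 : ℝ)) x = 1 := fun x hx =>
    cE_of_inv Ω (rel T) (rel_equiv T) _ hx (fun _ _ _ => rfl)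
  have h3 : ∑ x ∈ Ω, cE Ω (rel T) (fun _ => (1 : ℝ)) x * G x = ∑ x ∈ Ω, G x :=
    sum_congr rfl fun x hx => by rw [h2 x hx, one_mul]
  rw [← h3, ← h1]
  refine sum_nonneg fun x hx => ?_
  rw [one_mul]
  unfold cE
  exact div_nonneg (h x hx) (Nat.cast_nonneg _)

/-- transfer of a quadratic inequality between the operators `dd` from the small tables to the
classes of the big ones -/
theorem ineq_transfer {emb : ι' → ι} (hinj : Function.Injective emb) (r : ι → ℕ) (c : κ → ℕ)
    (S : Finset (Finset ι')) (f : Tab ι κ → ℝ)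
    (h : ∀ (c' : κ → ℕ) (F : Tab ι' κ → ℝ),
      ∑ y ∈ Om (fun k => r (emb k)) c', dd (Om (fun k => r (emb k)) c') univ F y ^ 2 ≤
        ∑ P ∈ S, ∑ y ∈ Om (fun k => r (emb k)) c', dd (Om (fun k => r (emb k)) c') P F y ^ 2) :
    ∑ x ∈ Om r c, dd (Om r c) (univ.image emb) f x ^ 2 ≤
      ∑ P ∈ S, ∑ x ∈ Om r c, dd (Om r c) (P.image emb) f x ^ 2 := by
  rw [sum_comm, ← sub_nonneg, ← sum_sub_distrib]
  apply sum_nonneg_of_class (Om r c) (univ.image emb)
  intro x0 hx0
  set F : Tab ι' κ → ℝ := fun y => f (ext emb x0 y) with hF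
  set Ω' := Om (fun k => r (emb k)) (resCol emb x0) with hΩ'
  have key : ∀ x ∈ fib (Om r c) (rel (univ.image emb)) x0, ∀ P : Finset ι',
      dd (Om r c) (P.image emb) f x = dd Ω' P F (res emb x) := by
    intro x hx P
    obtain ⟨hxO, hrel⟩ := mem_filter.mp hx
    rw [dd_transfer hinj hxO P f, resCol_congr hinj hx0 hxO hrel]
    have : (fun y => f (ext emb x y)) = F := by
      funext y
      rw [hF, ext_congr hinj hrel y]
    rw [this]
  have e1 : ∑ x ∈ fib (Om r c) (rel (univ.image emb)) x0,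
      (∑ P ∈ S, dd (Om r c) (P.image emb) f x ^ 2 - dd (Om r c) (univ.image emb) f x ^ 2) =
      ∑ x ∈ fib (Om r c) (rel (univ.image emb)) x0,
      (fun y => ∑ P ∈ S, dd Ω' P F y ^ 2 - dd Ω' univ F y ^ 2) (res emb x) := by
    refine sum_congr rfl fun x hx => ?_
    simp only [key x hx]
  rw [e1, sum_fib_transfer hinj hx0 univ (fun y => ∑ P ∈ S, dd Ω' P F y ^ 2 - dd Ω' univ F y ^ 2)]
  have e2 : fib Ω' (rel (univ : Finset ι')) (res emb x0) = Ω' := by
    unfold fib
    apply filter_true_of_mem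
    intro y _ k hk
    exact absurd (mem_univ k) hk
  rw [e2, sum_sub_distrib, sub_nonneg, sum_comm]
  exact h (resCol emb x0) F

end Transfer

end Vale.Agent.Lib.P328
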